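import Mathlib

namespace Vale.Agent.P181

open Finset Polynomial

theorem polar {V N ι : Type*} [AddCommGroup V] [Module ℂ V] [AddCommGroup N] [Module ℂ N]
    [Fintype ι] [DecidableEq ι] (μ : MultilinearMap ℂ (fun _ : ι => V) N)
    (hμ : ∀ (e : Equiv.Perm ι) (v : ι → V), μ (fun i => v (e i)) = μ v) (U : Submodule ℂ N)
    (h : ∀ v, μ (fun _ => v) ∈ U) (v : ι → V) : μ v ∈ U := by
  have h1 : ∑ ε : ι → Fin 2, (∏ s, (-1 : ℂ) ^ (ε s).val) •
      μ (fun _ => ∑ s, (1 - (ε s).val : ℂ) • v s) ∈ U :=
    U.sum_mem fun ε _ => U.smul_mem _ (h _)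
  have h2 : ∀ f : ι → ι, ∑ ε : ι → Fin 2, (∏ s, (-1 : ℂ) ^ (ε s).val) *
      ∏ j, (1 - (ε (f j)).val : ℂ) = if Function.Surjective f then 1 else 0 := by
    intro f
    have : ∀ ε : ι → Fin 2, (∏ s, (-1 : ℂ) ^ (ε s).val) * ∏ j, (1 - (ε (f j)).val : ℂ)
        = ∏ s, ((-1 : ℂ) ^ (ε s).val *
          (1 - (ε s).val : ℂ) ^ (univ.filter fun j => f j = s).card) := by
      intro ε
      rw [prod_mul_distrib, ← prod_fiberwise (g := f) univ fun j => (1 - (ε (f j)).val : ℂ)]
      congr 1
      exact prod_congr rfl fun s _ => by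
        rw [prod_congr rfl fun j hj => by rw [(mem_filter.1 hj).2], prod_const]
    rw [sum_congr rfl fun ε _ => this ε, ← Fintype.piFinset_univ, ← prod_univ_sum
      (fun _ => univ) fun s (e : Fin 2) => (-1 : ℂ) ^ e.val *
        (1 - e.val : ℂ) ^ (univ.filter fun j => f j = s).card]
    split_ifs with hf
    · refine prod_eq_one fun s _ => ?_
      obtain ⟨j, hj⟩ := hf s
      have : (univ.filter fun j => f j = s).card ≠ 0 := card_ne_zero_of_mem (a := j) (by simp [hj])
      simp [this]
    · obtain ⟨s, hs⟩ := not_forall.1 hf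
      refine prod_eq_zero (mem_univ s) ?_
      rw [filter_false_of_mem fun j _ e => hs ⟨j, e⟩]
      simp
  simp only [μ.map_sum, μ.map_smul_univ, smul_sum, smul_smul] at h1
  rw [sum_comm] at h1
  simp only [← sum_smul, h2, ite_smul, one_smul, zero_smul, ← sum_filter] at h1
  rw [sum_congr rfl (g := fun _ => μ v) fun f hf => hμ (Equiv.ofBijective f
    (Finite.surjective_iff_bijective.1 (mem_filter.1 hf).2)) v, sum_const,
    ← Nat.cast_smul_eq_nsmul ℂ] at h1
  refine (U.smul_mem_iff ?_).1 h1
  exact_mod_cast card_ne_zero_of_mem (a := id) (by simp [Function.surjective_id])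

section
variable {R : Type*} [CommRing R] [Algebra ℂ R]

theorem coef (U : Submodule ℂ R) (p : R[X]) (h : ∀ t : ℂ, p.eval (algebraMap ℂ R t) ∈ U)
    (m : ℕ) : p.coeff m ∈ U := by
  by_contra h1
  obtain ⟨f, a1, a2⟩ := U.exists_le_ker_of_notMem h1
  have : ∑ k ∈ p.support, monomial k (f (p.coeff k)) = 0 := by
    refine Polynomial.funext fun t => ?_
    have := a2 (h t)
    rw [LinearMap.mem_ker, eval_eq_sum, Polynomial.sum, map_sum] at this
    rw [eval_zero, eval_finset_sum, ← this]
    refine sum_congr rfl fun k _ => ?_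
    rw [eval_monomial, ← map_pow, mul_comm (p.coeff k), ← Algebra.smul_def, map_smul, smul_eq_mul,
      mul_comm]
  have h2 := congrArg (fun q => q.coeff m) this
  simp only [finset_sum_coeff, coeff_monomial, sum_ite_eq', coeff_zero] at h2
  rw [if_pos (mem_support_iff.2 fun e => a1 (by rw [e, map_zero]))] at h2
  exact a1 h2

theorem conv {S U : Submodule ℂ R} {a b : R} (ha : a ∈ S) (hb : b ∈ S) (d : ℕ) (p : R[X])
    (h : ∀ m, ((C a + C b * X) ^ d * p).coeff m ∈ U) (m : ℕ) :
    a ^ (m + d) * p.coeff m ∈ S ^ m * U := by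
  induction d generalizing p m with
  | zero => exact Submodule.mul_mem_mul (Submodule.pow_mem_pow _ ha _) (by simpa using h m)
  | succ d ih =>
    have h1 := ih ((C a + C b * X) * p) fun m => by rw [← mul_assoc, ← pow_succ]; exact h m
    induction m with
    | zero => simpa [pow_succ, mul_assoc] using h1 0
    | succ m ih2 =>
      have h2 := h1 (m + 1)
      rw [add_mul, mul_assoc, coeff_add, coeff_C_mul, coeff_C_mul, coeff_X_mul] at h2
      have h3 := Submodule.mul_mem_mul hb ih2
      rw [← mul_assoc, ← pow_succ'] at h3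
      have := Submodule.sub_mem _ h2 h3
      rwa [show a ^ (m + 1 + d) * (a * p.coeff (m + 1) + b * p.coeff m)
        - b * (a ^ (m + (d + 1)) * p.coeff m) = a ^ (m + 1 + (d + 1)) * p.coeff (m + 1) by ring]
        at this

variable {W : Type*} [AddCommGroup W] [Module ℂ W]

theorem pow_le_span (y : W →ₗ[ℂ] R) (k : ℕ) :
    LinearMap.range y ^ k ≤ Submodule.span ℂ (Set.range fun u => y u ^ k) := by
  induction k with
  | zero => rw [pow_zero, Submodule.one_le]; exact Submodule.subset_span ⟨0, by simp⟩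
  | succ k ih =>
    rw [pow_succ]
    refine (mul_le_mul_left ih _).trans ?_
    rw [← Submodule.span_eq (LinearMap.range y), Submodule.span_mul_span, Submodule.span_le]
    rintro _ ⟨_, ⟨u, rfl⟩, _, ⟨v, rfl⟩, rfl⟩
    have := coef (Submodule.span ℂ (Set.range fun u => y u ^ (k + 1)))
      ((C (y u) + C (y v) * X) ^ (k + 1)) (fun t => Submodule.subset_span ⟨u + t • v, by
        simp only [map_add, map_smul, eval_pow, eval_add, eval_mul, eval_C, eval_X]
        rw [Algebra.smul_def, mul_comm]⟩) 1
    have h1 : ∀ n : ℕ, ((C (y u) + C (y v) * X) ^ (n + 1)).coeff 1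
        = ((n + 1 : ℕ) : ℂ) • (y u ^ n * y v) := by
      intro n
      induction n with
      | zero => simp
      | succ n ih =>
        rw [pow_succ', add_mul, mul_assoc, coeff_add, coeff_C_mul, coeff_C_mul, coeff_X_mul, ih,
          coeff_zero_eq_eval_zero]
        simp only [Nat.cast_smul_eq_nsmul, nsmul_eq_mul]
        simp
        ring
    rw [h1] at this
    exact (Submodule.smul_mem_iff _ (by exact_mod_cast k.succ_ne_zero)).1 this

variable {P : Type*} [DecidableEq P] (x : P → W →ₗ[ℂ] R)

/-- norm of a linear form -/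
def NN (T : Finset P) (l : W) : R := ∏ i ∈ T, x i l

/-- span of powers of norms -/
def AA (T : Finset P) (d : ℕ) : Submodule ℂ R := Submodule.span ℂ (Set.range fun l => NN x T l ^ d)

theorem key {T : Finset P} {i : P} (hi : i ∉ T) {c d : ℕ} (hc : T.card * d ≤ c) :
    LinearMap.range (x i) ^ (c + d) * AA x T d
      ≤ LinearMap.range (x i) ^ c * AA x (insert i T) d := by
  obtain ⟨e, rfl⟩ := Nat.exists_eq_add_of_le' hc
  rw [add_assoc, pow_add, pow_add _ e, mul_assoc, mul_assoc]
  refine mul_le_mul_right ((mul_le_mul_left (pow_le_span _ _) _).trans ?_) _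
  rw [AA, Submodule.span_mul_span, Submodule.span_le]
  rintro _ ⟨_, ⟨u, rfl⟩, _, ⟨l, rfl⟩, rfl⟩
  have h1 := conv (S := LinearMap.range (x i)) (U := AA x (insert i T) d) ⟨u, rfl⟩ ⟨l, rfl⟩ d
    (∏ j ∈ T, (C (x j u) + C (x j l) * X) ^ d) (coef _ _ fun t => Submodule.subset_span
      ⟨u + t • l, by
        simp only [NN, prod_insert hi, map_add, map_smul, eval_pow, eval_add, eval_mul, eval_C,
          eval_X, eval_prod, mul_pow, prod_pow]
        simp only [Algebra.smul_def, mul_comm]⟩) (T.card * d)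
  have h2 : ∀ j, (C (x j u) + C (x j l) * X).natDegree ≤ 1 := fun j => by compute_degree
  rw [coeff_prod_of_natDegree_le _ _ _ fun j _ => by
    simpa using natDegree_pow_le_of_le d (h2 j)] at h1
  have h3 : ∀ j, ((C (x j u) + C (x j l) * X) ^ d).coeff d = x j l ^ d := fun j => by
    simpa [coeff_C] using coeff_pow_of_natDegree_le (m := d) (h2 j)
  simp only [h3, prod_pow] at h1
  exact h1

/-- multihomogeneous part -/
def RR (T : Finset P) (b : ℕ) : Submodule ℂ R := ∏ i ∈ T, LinearMap.range (x i) ^ b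

theorem extract (T : Finset P) {c d : ℕ} (hc : (T.card - 1) * d ≤ c) :
    RR x T (c + d) ≤ RR x T c * AA x T d := by
  induction T using Finset.induction_on with
  | empty =>
    rw [RR, RR, prod_empty, prod_empty, one_mul, Submodule.one_le]
    exact Submodule.subset_span ⟨0, by simp [NN]⟩
  | insert i T hi ih =>
    rw [card_insert_of_notMem hi, Nat.add_sub_cancel] at hc
    have h1 := ih ((Nat.mul_le_mul_right _ (Nat.sub_le _ _)).trans hc)
    rw [RR, RR, prod_insert hi, prod_insert hi]
    refine (mul_le_mul_right h1 _).trans ?_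
    rw [mul_left_comm, mul_comm (LinearMap.range (x i) ^ c), mul_assoc]
    exact mul_le_mul_right (key x hi hc) _

theorem conversion {T : Finset P} {i : P} (hi : i ∉ T) {d : ℕ} (hd : T.card ≤ d) (c : ℕ) :
    LinearMap.range (x i) ^ (d + c) * AA x T 1 ^ c
      ≤ LinearMap.range (x i) ^ d * AA x (insert i T) 1 ^ c := by
  induction c with
  | zero => simp
  | succ c ih =>
    rw [pow_succ' (AA x T 1), ← mul_assoc, ← add_assoc]
    refine (mul_le_mul_left (key x hi (by omega)) _).trans ?_
    rw [mul_right_comm, pow_succ, ← mul_assoc]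
    exact mul_le_mul_left ih _

theorem newton [Fintype P] (T : Finset P) (g l : W) {d : ℕ} (hd : 0 < d) :
    ∑ k ∈ T, (x k g * NN x (T.erase k) l) ^ d ∈ AA x T 1 ^ d := by
  let q : P → R := fun k => if k ∈ T then x k g * NN x (T.erase k) l else 0
  have h0 : NN x T l ∈ AA x T 1 := Submodule.subset_span ⟨l, by simp⟩
  have h1 : ∀ m, ∑ S ∈ T.powerset with S.card = m, (∏ k ∈ S, x k g) * NN x (T \ S) l
      ∈ AA x T 1 := by
    intro m
    have := coef (AA x T 1) (∑ S ∈ T.powerset,
      monomial S.card ((∏ k ∈ S, x k g) * NN x (T \ S) l)) (fun t => Submodule.subset_span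
        ⟨t • g + l, by
          simp only [NN, map_add, map_smul, pow_one, prod_add, eval_finset_sum, eval_monomial,
            Algebra.smul_def, prod_mul_distrib, prod_const]
          exact sum_congr rfl fun S _ => by ring⟩) m
    simpa only [finset_sum_coeff, coeff_monomial, ← sum_filter] using this
  have h2 : ∀ S ⊆ T, ∀ n, S.card = n + 1 →
      ∏ k ∈ S, q k = NN x T l ^ n * ((∏ k ∈ S, x k g) * NN x (T \ S) l) := by
    intro S
    induction S using Finset.induction_on with
    | empty => simp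
    | insert k S hk ih =>
      intro a1 n a2
      have a3 : k ∈ T := a1 (mem_insert_self _ _)
      rw [card_insert_of_notMem hk, add_left_inj] at a2
      rcases n with _ | n
      · simp [card_eq_zero.1 a2, q, a3, sdiff_singleton_eq_erase]
      · have a4 : NN x (T \ S) l = x k l * NN x (T \ insert k S) l := by
          rw [NN, NN, sdiff_insert, mul_prod_erase _ (fun i => x i l) (mem_sdiff.2 ⟨a3, hk⟩)]
        have a5 : NN x T l = x k l * NN x (T.erase k) l :=
          (mul_prod_erase _ (fun i => x i l) a3).symm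
        rw [prod_insert hk, prod_insert hk, ih ((subset_insert _ _).trans a1) n a2, a4, pow_succ]
        nth_rewrite 3 [a5]
        simp only [q, a3, if_true]
        ring
  have h3 : ∀ m, 0 < m → MvPolynomial.aeval q (MvPolynomial.esymm P ℂ m) ∈ AA x T 1 ^ m := by
    intro m hm
    obtain ⟨n, rfl⟩ := Nat.exists_eq_add_of_lt hm
    rw [zero_add]
    have := Submodule.mul_mem_mul (Submodule.pow_mem_pow _ h0 n) (h1 (n + 1))
    rw [← pow_succ, mul_sum] at this
    simp only [MvPolynomial.esymm, map_sum, map_prod, MvPolynomial.aeval_X]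
    refine Eq.subst (motive := fun z => z ∈ AA x T 1 ^ (n + 1)) ?_ this
    refine sum_subset_zero_on_sdiff (fun S hS => by simpa using (mem_filter.1 hS).2)
      (fun S hS => ?_) fun S hS => ?_
    · simp only [mem_sdiff, mem_powersetCard, subset_univ, true_and, mem_filter, mem_powerset,
        not_and] at hS
      obtain ⟨k, a1, a2⟩ := not_subset.1 fun e => hS.2 e hS.1
      exact prod_eq_zero a1 (by simp [q, a2])
    · simp only [mem_filter, mem_powerset] at hS
      exact (h2 S hS.1 n hS.2).symm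
  have h4 : ∀ m, 0 < m → MvPolynomial.aeval q (MvPolynomial.psum P ℂ m) ∈ AA x T 1 ^ m := by
    intro m
    induction m using Nat.strong_induction_on with
    | _ m ih =>
      intro hm
      rw [MvPolynomial.psum_eq_mul_esymm_sub_sum _ _ _ hm, map_sub, map_sum]
      refine Submodule.sub_mem _ ?_ (Submodule.sum_mem _ fun a ha => ?_)
      · have := Submodule.smul_mem _ ((-1 : ℂ) ^ (m + 1) * m) (h3 m hm)
        simpa [Algebra.smul_def] using this
      · simp only [mem_filter, HasAntidiagonal.mem_antidiagonal, Set.mem_Ioo] at ha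
        have := Submodule.smul_mem _ ((-1 : ℂ) ^ a.1) (Submodule.mul_mem_mul (h3 a.1 ha.2.1)
          (ih a.2 (by omega) (by omega)))
        rw [← pow_add, ha.1] at this
        simpa [Algebra.smul_def, mul_assoc] using this
  have := h4 d hd
  simp only [MvPolynomial.psum, map_sum, map_pow, MvPolynomial.aeval_X, q, ite_pow,
    zero_pow hd.ne', ← sum_filter, filter_mem_eq_inter, univ_inter] at this
  exact this

variable [Fintype P]

/-- permutations supported on `T` -/
def GG (T : Finset P) : Finset (Equiv.Perm P) := univ.filter fun g => ∀ p ∉ T, g p = p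

theorem mem_GG {T : Finset P} {g : Equiv.Perm P} : g ∈ GG T ↔ ∀ p ∉ T, g p = p := by simp [GG]

theorem GG_pres {T : Finset P} {g : Equiv.Perm P} (hg : g ∈ GG T) (p : P) : p ∈ T ↔ g p ∈ T := by
  rw [mem_GG] at hg
  constructor
  · intro h
    by_contra h1
    exact h1 ((g.injective (hg _ h1)).symm ▸ h)
  · intro h
    by_contra h1
    exact h1 (hg p h1 ▸ h)

theorem sum_right {M : Type*} [AddCommMonoid M] {T : Finset P} {h : Equiv.Perm P} (hh : h ∈ GG T)
    (F : Equiv.Perm P → M) : ∑ g ∈ GG T, F (g * h) = ∑ g ∈ GG T, F g :=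
  sum_equiv (Equiv.mulRight h) (fun g => by
    simp only [mem_GG, Equiv.coe_mulRight, Equiv.Perm.mul_apply] at hh ⊢
    exact forall₂_congr fun p hp => by rw [hh p hp]) fun _ _ => rfl

theorem card_GG (T : Finset P) : ((GG T).card : ℂ) ≠ 0 := by
  exact_mod_cast card_ne_zero_of_mem (a := 1) (by simp [mem_GG])

variable (ρ : Equiv.Perm P →* R →ₐ[ℂ] R) (hρ : ∀ g i l, ρ g (x i l) = x (g i) l)

/-- averaging -/
def av (T : Finset P) : R →ₗ[ℂ] R := ∑ g ∈ GG T, (ρ g).toLinearMap

theorem av_apply (T : Finset P) (f : R) : av ρ T f = ∑ g ∈ GG T, ρ g f := by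
  simp [av]

include hρ

theorem rho_NN {T : Finset P} {g : Equiv.Perm P} (hg : g ∈ GG T) (l : W) :
    ρ g (NN x T l) = NN x T l := by
  simp only [NN, map_prod, hρ]
  exact prod_equiv g (GG_pres hg) fun _ _ => rfl

theorem rho_AA {T : Finset P} {g : Equiv.Perm P} (hg : g ∈ GG T) (c : ℕ) {w : R}
    (hw : w ∈ AA x T 1 ^ c) : ρ g w = w := by
  refine Submodule.pow_induction_on_left _ (C := fun w => ρ g w = w) (fun r => (ρ g).commutes r)
    (fun y z hy hz => by rw [map_add, hy, hz]) (fun y hy z hz => ?_) hw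
  rw [map_mul, hz]
  congr 1
  refine (Submodule.span_le (p := LinearMap.eqLocus (ρ g).toLinearMap LinearMap.id)).2 ?_ hy
  rintro _ ⟨l, rfl⟩
  simpa using rho_NN x ρ hρ hg l

theorem av_tr {T : Finset P} {i : P} (hi : i ∉ T) (l : W) {d : ℕ} {G : R}
    (hG : G ∈ LinearMap.range (x i) ^ d) :
    av ρ (insert i T) (G * NN x T l ^ d) ∈ AA x (insert i T) 1 ^ d := by
  refine (Submodule.span_le (p := (AA x (insert i T) 1 ^ d).comap
    (av ρ (insert i T) ∘ₗ LinearMap.mulRight ℂ (NN x T l ^ d)))).2 ?_ (pow_le_span _ _ hG)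
  rintro _ ⟨u, rfl⟩
  change av ρ (insert i T) (x i u ^ d * NN x T l ^ d) ∈ AA x (insert i T) 1 ^ d
  rcases Nat.eq_zero_or_pos d with rfl | hd
  · simp only [av_apply, pow_zero, mul_one, map_one]
    exact Submodule.sum_mem _ fun _ _ => Submodule.one_le.1 le_rfl
  set S := insert i T with hS
  let F : P → R := fun k => (x k u * NN x (S.erase k) l) ^ d
  have h1 : ∀ g ∈ GG S, ρ g (x i u ^ d * NN x T l ^ d) = F (g i) := by
    intro g hg
    simp only [F, ← mul_pow, map_pow, map_mul, hρ, NN, map_prod]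
    congr 2
    refine prod_equiv g (fun p => ?_) fun _ _ => rfl
    rw [mem_erase, ← GG_pres hg, g.injective.ne_iff, hS, mem_insert]
    exact ⟨fun h => ⟨fun e => hi (e ▸ h), Or.inr h⟩, fun h => h.2.resolve_left h.1⟩
  have h2 : ∀ k ∈ S, ∑ g ∈ GG S, F (g i) = ∑ g ∈ GG S, F (g k) := by
    intro k hk
    have : Equiv.swap i k ∈ GG S := mem_GG.2 fun p hp => Equiv.swap_apply_of_ne_of_ne
      (fun e => hp (e ▸ mem_insert_self _ _)) fun e => hp (e ▸ hk)
    rw [← sum_right this]
    simp
  have h3 : (S.card : ℂ) • ∑ g ∈ GG S, F (g i) = ∑ g ∈ GG S, ∑ k ∈ S, F k := by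
    rw [Nat.cast_smul_eq_nsmul, ← sum_const, sum_congr rfl h2, sum_comm]
    exact sum_congr rfl fun g hg => sum_equiv g (GG_pres hg) fun _ _ => rfl
  have h4 : (S.card : ℂ) ≠ 0 := by exact_mod_cast card_ne_zero_of_mem (mem_insert_self i T)
  rw [av_apply, sum_congr rfl h1, ← (AA x S 1 ^ d).smul_mem_iff h4, h3]
  exact Submodule.sum_mem _ fun _ _ => newton x S u l hd

theorem main (T : Finset P) (b : ℕ) (hb : (T.card - 1) ^ 2 ≤ b) :
    RR x T b ≤ (AA x T 1 ^ b).comap (av ρ T) := by
  induction T using Finset.induction_on generalizing b with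
  | empty =>
    rw [RR, prod_empty, Submodule.one_le, Submodule.mem_comap, av_apply]
    refine Submodule.sum_mem _ fun _ _ => ?_
    simpa using Submodule.pow_mem_pow (AA x ∅ 1)
      (Submodule.subset_span (Set.mem_range.2 ⟨0, by simp [NN]⟩) : (1 : R) ∈ AA x ∅ 1) b
  | insert i T hi ih =>
    rw [card_insert_of_notMem hi, Nat.add_sub_cancel] at hb
    obtain ⟨c, rfl⟩ : ∃ c, b = c + T.card := ⟨b - T.card, by
      have := Nat.le_self_pow (two_ne_zero) T.card; omega⟩
    have hc : (T.card - 1) * T.card ≤ c := by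
      rw [Nat.sub_one_mul, ← sq]; omega
    have h1 := ih c ((by rw [sq]; exact Nat.mul_le_mul_left _ (Nat.sub_le _ _) :
      (T.card - 1) ^ 2 ≤ (T.card - 1) * T.card).trans hc)
    rw [RR, prod_insert hi]
    refine (mul_le_mul_right (extract x T hc) _).trans ?_
    rw [← mul_assoc, AA, ← Submodule.span_eq (_ * RR x T c), Submodule.span_mul_span,
      Submodule.span_le]
    rintro _ ⟨f, hf, _, ⟨l, rfl⟩, rfl⟩
    have h2 : av ρ T f ∈ LinearMap.range (x i) ^ T.card * AA x (insert i T) 1 ^ c := by
      refine conversion x hi le_rfl c ?_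
      refine Submodule.mul_induction_on hf (fun G hG h hh => ?_)
        fun y z hy hz => by rw [map_add]; exact Submodule.add_mem _ hy hz
      have : av ρ T (G * h) = G * av ρ T h := by
        rw [av_apply, av_apply, mul_sum]
        refine sum_congr rfl fun g hg => ?_
        rw [map_mul]
        congr 1
        refine Submodule.pow_induction_on_left _ (C := fun w => ρ g w = w)
          (fun r => (ρ g).commutes r) (fun y z hy hz => by rw [map_add, hy, hz]) ?_ hG
        rintro _ ⟨u, rfl⟩ z hz
        rw [map_mul, hz, hρ, mem_GG.1 hg i hi]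
      rw [this, add_comm]
      exact Submodule.mul_mem_mul hG (h1 hh)
    have h3 : ((GG T).card : ℂ) • av ρ (insert i T) (f * NN x T l ^ T.card)
        = av ρ (insert i T) (av ρ T f * NN x T l ^ T.card) := by
      rw [av_apply ρ T, sum_mul, map_sum, Nat.cast_smul_eq_nsmul, ← sum_const]
      refine sum_congr rfl fun g hg => ?_
      have hg' : g ∈ GG (insert i T) :=
        mem_GG.2 fun p hp => mem_GG.1 hg p fun e => hp (mem_insert_of_mem e)
      rw [av_apply, av_apply, ← sum_right hg']
      refine sum_congr rfl fun k _ => ?_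
      nth_rewrite 2 [← rho_NN x ρ hρ hg l]
      rw [← map_pow, ← map_mul, map_mul ρ]
      rfl
    rw [SetLike.mem_coe, Submodule.mem_comap, ← Submodule.smul_mem_iff _ (card_GG T), h3]
    refine Submodule.mul_induction_on (C := fun y =>
      av ρ (insert i T) (y * NN x T l ^ T.card) ∈ AA x (insert i T) 1 ^ (c + T.card)) h2
      (fun G hG w hw => ?_) fun y z hy hz => by
        rw [add_mul, map_add]; exact Submodule.add_mem _ hy hz
    have : av ρ (insert i T) (G * w * NN x T l ^ T.card)
        = w * av ρ (insert i T) (G * NN x T l ^ T.card) := by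
      rw [av_apply, av_apply, mul_sum]
      exact sum_congr rfl fun g hg => by
        rw [mul_right_comm, map_mul, rho_AA x ρ hρ hg c hw, mul_comm]
    rw [this, pow_add]
    exact Submodule.mul_mem_mul hw (av_tr x ρ hρ hi l hG)

end

end Vale.Agent.P181
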