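import Mathlib

namespace Vale.Agent.P181

variable {ι κ : Type} {M N : Type*} [AddCommGroup M] [Module ℂ M] [AddCommGroup N] [Module ℂ N]

/-- symmetry of a multilinear map -/
def IsSymm (f : MultilinearMap ℂ (fun _ : ι => M) N) : Prop :=
  ∀ (e : Equiv.Perm ι) (v : ι → M), f (fun i => v (e i)) = f v

/-- the additive map on the tensor power induced by a multilinear map -/
noncomputable def tenLift (f : MultilinearMap ℂ (fun _ : ι => M) N) :
    PiTensorProduct ℂ (fun _ : ι => M) →+ N :=
  (PiTensorProduct.lift f).toAddMonoidHom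

/-- the additive map on the symmetric power induced by a symmetric multilinear map -/
noncomputable def symLiftAdd (f : MultilinearMap ℂ (fun _ : ι => M) N) (hf : IsSymm f) :
    SymmetricPower ℂ ι M →+ N :=
  AddCon.lift _ (tenLift f) (AddCon.addConGen_le.2 fun _ _ h => by
    cases h with
    | perm e v => simpa [AddCon.ker_rel, tenLift] using (hf e v).symm)

/-- the linear map on the symmetric power induced by a symmetric multilinear map -/
noncomputable def symLift (f : MultilinearMap ℂ (fun _ : ι => M) N) (hf : IsSymm f) :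
    SymmetricPower ℂ ι M →ₗ[ℂ] N where
  toFun := symLiftAdd f hf
  map_add' := map_add _
  map_smul' r x := AddCon.induction_on x fun x => (PiTensorProduct.lift f).map_smul r x

/-- functoriality of the symmetric power -/
noncomputable def symMap (ι : Type) (f : M →ₗ[ℂ] N) :
    SymmetricPower ℂ ι M →ₗ[ℂ] SymmetricPower ℂ ι N :=
  symLift ((SymmetricPower.tprod ℂ).compLinearMap fun _ => f)
    fun e v => SymmetricPower.tprod_equiv e fun i => f (v i)

/-- `Ψ` is given on products by the formula defining the canonical (Foulkes-Howe) map -/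
def IsFH [Fintype ι] [DecidableEq ι] [Fintype κ] [DecidableEq κ]
    (Ψ : SymmetricPower ℂ ι (SymmetricPower ℂ κ M) →
      SymmetricPower ℂ κ (SymmetricPower ℂ ι M)) : Prop :=
  ∀ v : ι → κ → M, Ψ (SymmetricPower.tprod ℂ fun i => SymmetricPower.tprod ℂ fun j => v i j)
    = ∑ σ : ι → Equiv.Perm κ,
      SymmetricPower.tprod ℂ fun j => SymmetricPower.tprod ℂ fun i => v i (σ i j)

/-- the action of a linear automorphism on an iterated symmetric power -/
noncomputable def act (ι κ : Type) (g : M ≃ₗ[ℂ] M) (u : SymmetricPower ℂ ι (SymmetricPower ℂ κ M)) :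
    SymmetricPower ℂ ι (SymmetricPower ℂ κ M) :=
  symMap ι (symMap κ g.toLinearMap) u

/-- equivariance under all linear automorphisms -/
def Equivariant (Ψ : SymmetricPower ℂ ι (SymmetricPower ℂ κ M) →
    SymmetricPower ℂ κ (SymmetricPower ℂ ι M)) : Prop :=
  ∀ (g : M ≃ₗ[ℂ] M) (u : SymmetricPower ℂ ι (SymmetricPower ℂ κ M)),
    Ψ (act ι κ g u) = act κ ι g (Ψ u)

end Vale.Agent.P181
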