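import Vale.Agent.P181.Core
import Vale.Agent.P181.Defs

namespace Vale.Agent.P181

open Finset SymmetricPower Module

variable {ι κ : Type} {M N : Type*} [AddCommGroup M] [Module ℂ M] [AddCommGroup N] [Module ℂ N]

theorem symLift_tprod (f : MultilinearMap ℂ (fun _ : ι => M) N) (hf) (v : ι → M) :
    symLift f hf (tprod ℂ v) = f v := PiTensorProduct.lift.tprod v

theorem symMap_tprod (f : M →ₗ[ℂ] N) (v : ι → M) :
    symMap ι f (tprod ℂ v) = tprod ℂ fun i => f (v i) := symLift_tprod _ _ _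

theorem sym_ext {f g : SymmetricPower ℂ ι M →ₗ[ℂ] N} (h : ∀ v, f (tprod ℂ v) = g (tprod ℂ v)) :
    f = g := LinearMap.ext_on_range (span_tprod_eq_top ℂ ι M) h

variable [Fintype ι] [DecidableEq ι] [Fintype κ] [DecidableEq κ]

theorem span_pure1 : Submodule.span ℂ (Set.range fun v : M => tprod ℂ fun _ : ι => v) = ⊤ := by
  rw [eq_top_iff, ← span_tprod_eq_top, Submodule.span_le]
  rintro _ ⟨v, rfl⟩
  exact polar _ tprod_equiv _ (fun v => Submodule.subset_span (Set.mem_range_self v)) v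

/-- products of pure powers -/
noncomputable def pure (κ : Type) (v : ι → M) : SymmetricPower ℂ ι (SymmetricPower ℂ κ M) :=
  tprod ℂ fun i => tprod ℂ fun _ : κ => v i

theorem span_pure : Submodule.span ℂ (Set.range (pure κ : (ι → M) → _)) = ⊤ := by
  rw [← Submodule.ker_mkQ (Submodule.span ℂ _), LinearMap.ker_eq_top]
  refine sym_ext fun F => ?_
  have := MultilinearMap.ext_of_span_eq_top (g := fun (_ : ι) (v : M) => tprod ℂ fun _ : κ => v)
    (fun _ => span_pure1) (φ := (Submodule.span ℂ (Set.range (pure κ : (ι → M) → _))).mkQ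
      |>.compMultilinearMap (tprod ℂ)) (φ' := 0) fun v =>
        (Submodule.Quotient.mk_eq_zero _).2 (Submodule.subset_span ⟨v, rfl⟩)
  exact DFunLike.congr_fun this F

/-- product of linear forms -/
noncomputable def pm (L : ι → Dual ℂ M) : MultilinearMap ℂ (fun _ : ι => M) ℂ :=
  (MultilinearMap.mkPiAlgebra ℂ ι ℂ).compLinearMap L

theorem pm_apply (L : ι → Dual ℂ M) (v : ι → M) : pm L v = ∏ i, L i (v i) := by simp [pm]

theorem perm_flip (F : ι → ι → ℂ) :
    ∑ σ : Equiv.Perm ι, ∏ i, F (σ i) i = ∑ σ : Equiv.Perm ι, ∏ i, F i (σ i) :=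
  Fintype.sum_equiv (Equiv.inv _) _ _ fun σ => Fintype.prod_equiv σ _ _ fun i => by simp

/-- the permanent pairing -/
noncomputable def kap (L : ι → Dual ℂ M) : Dual ℂ (SymmetricPower ℂ ι M) :=
  symLift (∑ σ : Equiv.Perm ι, (pm L).domDomCongr σ) fun e v => by
    simp only [MultilinearMap.sum_apply, MultilinearMap.domDomCongr_apply]
    exact Fintype.sum_equiv (Equiv.mulLeft e) _ _ fun _ => rfl

theorem kap_tprod (L : ι → Dual ℂ M) (v : ι → M) :
    kap L (tprod ℂ v) = ∑ σ : Equiv.Perm ι, ∏ i, L i (v (σ i)) := by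
  refine (symLift_tprod _ _ _).trans ?_
  simp [pm_apply]

/-- the pairing as a multilinear map -/
noncomputable def kapM : MultilinearMap ℂ (fun _ : ι => Dual ℂ M)
    (Dual ℂ (SymmetricPower ℂ ι M)) where
  toFun := kap
  map_update_add' L i x y := sym_ext fun v => by
    have := fun L : ι → Dual ℂ M => fun σ : Equiv.Perm ι =>
      pm_apply (fun j => Dual.eval ℂ M (v (σ j))) L
    simp only [Dual.eval_apply] at this
    simp only [kap_tprod, LinearMap.add_apply, ← this, MultilinearMap.map_update_add,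
      sum_add_distrib]
  map_update_smul' L i c x := sym_ext fun v => by
    have := fun L : ι → Dual ℂ M => fun σ : Equiv.Perm ι =>
      pm_apply (fun j => Dual.eval ℂ M (v (σ j))) L
    simp only [Dual.eval_apply] at this
    simp only [kap_tprod, LinearMap.smul_apply, ← this, MultilinearMap.map_update_smul, smul_sum]

theorem kap_perm (e : Equiv.Perm ι) (L : ι → Dual ℂ M) : kap (fun i => L (e i)) = kap L :=
  sym_ext fun v => by
    rw [kap_tprod, kap_tprod, ← perm_flip fun i j => L (e i) (v j),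
      ← perm_flip fun i j => L i (v j)]
    exact Fintype.sum_equiv (Equiv.mulLeft e) _ _ fun _ => rfl

theorem card_perm_ne : (Fintype.card (Equiv.Perm ι) : ℂ) ≠ 0 := by
  exact_mod_cast Fintype.card_ne_zero

section
variable {β : Type} [Fintype β] (e : Basis β ℂ M)

theorem expand (μ : MultilinearMap ℂ (fun _ : ι => M) N) (m : ι → M) :
    μ m = ∑ s : ι → β, (∏ i, e.coord (s i) (m i)) • μ fun i => e (s i) := by
  simp only [← μ.map_smul_univ, ← μ.map_sum fun i s => e.coord s (m i) • e s]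
  simp

theorem expand2 {N' : Type*} [AddCommGroup N'] [Module ℂ N']
    (ν : MultilinearMap ℂ (fun _ : κ => N) N') (μ : MultilinearMap ℂ (fun _ : ι => M) N)
    (w : κ → ι → M) : ν (fun j => μ (w j)) = ∑ s : κ → ι → β,
      (∏ j, ∏ i, e.coord (s j i) (w j i)) • ν fun j => μ fun i => e (s j i) := by
  simp only [← ν.map_smul_univ,
    ← ν.map_sum fun j (s : ι → β) => (∏ i, e.coord (s i) (w j i)) • μ fun i => e (s i),
    ← expand]

theorem recon (φ : SymmetricPower ℂ ι M →ₗ[ℂ] N) (u : SymmetricPower ℂ ι M) :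
    ∑ s : ι → β, kap (fun i => e.coord (s i)) u • φ (tprod ℂ fun i => e (s i))
      = (Fintype.card (Equiv.Perm ι) : ℂ) • φ u := by
  have := sym_ext (f := ∑ s : ι → β, (kap fun i => e.coord (s i)).smulRight
    (φ (tprod ℂ fun i => e (s i)))) (g := (Fintype.card (Equiv.Perm ι) : ℂ) • φ) fun v => by
      simp only [LinearMap.sum_apply, LinearMap.smulRight_apply, kap_tprod, sum_smul,
        LinearMap.smul_apply]
      rw [sum_comm, Nat.cast_smul_eq_nsmul, ← card_univ, ← sum_const]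
      refine sum_congr rfl fun σ _ => ?_
      rw [← tprod_equiv σ v]
      exact (expand e (φ.compMultilinearMap (tprod ℂ)) _).symm
  simpa using DFunLike.congr_fun this u

include e in
theorem exists_FH : ∃ Ψ : SymmetricPower ℂ ι (SymmetricPower ℂ κ M) →ₗ[ℂ]
    SymmetricPower ℂ κ (SymmetricPower ℂ ι M), IsFH Ψ := by
  refine ⟨symLift (∑ s : κ → ι → β, (pm fun i => kap fun j => e.coord (s j i)).smulRight
    (tprod ℂ fun j => tprod ℂ fun i => e (s j i))) fun g F => ?_, fun v => ?_⟩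
  · simp only [MultilinearMap.sum_apply, MultilinearMap.smulRight_apply, pm_apply]
    refine (Fintype.sum_equiv (Equiv.piCongrRight fun _ => Equiv.arrowCongr g.symm (Equiv.refl β))
      _ _ fun s => ?_).symm
    congr 1
    · exact (Fintype.prod_equiv g _ _ fun i => rfl).symm
    · exact congrArg _ (funext fun j => (tprod_equiv g fun i => e (s j i)).symm)
  · refine (symLift_tprod _ _ _).trans ?_
    simp only [MultilinearMap.sum_apply, MultilinearMap.smulRight_apply, pm_apply,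
      kap_tprod, Fintype.prod_sum, sum_smul]
    rw [sum_comm]
    refine sum_congr rfl fun σ _ => ?_
    rw [expand2 e]
    exact sum_congr rfl fun s _ => by rw [prod_comm]

end

theorem FH_pure {Ψ : SymmetricPower ℂ ι (SymmetricPower ℂ κ M) →ₗ[ℂ]
    SymmetricPower ℂ κ (SymmetricPower ℂ ι M)} (h : IsFH Ψ) (v : ι → M) :
    Ψ (pure κ v) = (Fintype.card (ι → Equiv.Perm κ) : ℂ) • tprod ℂ fun _ : κ => tprod ℂ v := by
  rw [pure, h, sum_const, card_univ, Nat.cast_smul_eq_nsmul]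

theorem FH_equiv {Ψ : SymmetricPower ℂ ι (SymmetricPower ℂ κ M) →ₗ[ℂ]
    SymmetricPower ℂ κ (SymmetricPower ℂ ι M)} (h : IsFH Ψ) (g : M →ₗ[ℂ] M) :
    Ψ ∘ₗ symMap ι (symMap κ g) = symMap κ (symMap ι g) ∘ₗ Ψ :=
  LinearMap.ext_on_range span_pure fun v => by
    have := FH_pure h fun i => g (v i)
    simp only [pure] at this
    rw [LinearMap.comp_apply, LinearMap.comp_apply, FH_pure h]
    simp only [pure, symMap_tprod, map_smul, this]

theorem sep [FiniteDimensional ℂ M] (u : SymmetricPower ℂ ι (SymmetricPower ℂ κ M))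
    (h : ∀ ξ : ι → Dual ℂ M, kap (fun i => kap fun _ : κ => ξ i) u = 0) : u = 0 := by
  haveI : Module.Finite ℂ (SymmetricPower ℂ κ M) :=
    Module.Finite.of_surjective (mk ℂ κ M) (LinearMap.range_eq_top.1 (range_mk ℂ κ M))
  have h1 : Submodule.span ℂ (Set.range fun ξ : Dual ℂ M => kap fun _ : κ => ξ) = ⊤ := by
    rw [eq_top_iff]
    intro φ _
    have : (Fintype.card (Equiv.Perm κ) : ℂ) • φ = ∑ s : κ → Fin (finrank ℂ M),
        φ (tprod ℂ fun i => finBasis ℂ M (s i)) • kap fun i => (finBasis ℂ M).coord (s i) := by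
      ext u
      simp only [LinearMap.smul_apply, ← recon (finBasis ℂ M), LinearMap.sum_apply, smul_eq_mul,
        mul_comm]
    rw [← Submodule.smul_mem_iff _ (card_perm_ne (ι := κ)), this]
    exact Submodule.sum_mem _ fun s _ => Submodule.smul_mem _ _
      (polar kapM kap_perm _ (fun ξ => Submodule.subset_span (Set.mem_range_self ξ)) _)
  have h2 := MultilinearMap.ext_of_span_eq_top
    (g := fun (_ : ι) (ξ : Dual ℂ M) => kap fun _ : κ => ξ) (fun _ => h1)
    (φ := (Dual.eval ℂ _ u).compMultilinearMap kapM) (φ' := 0) h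
  have h3 := recon (finBasis ℂ (SymmetricPower ℂ κ M)) LinearMap.id u
  rw [sum_eq_zero fun s _ => by
    rw [show kap _ u = 0 from DFunLike.congr_fun h2 _, zero_smul]] at h3
  exact (smul_eq_zero.1 h3.symm).resolve_left card_perm_ne

section
variable {Y : Type*} (ev : M →ₗ[ℂ] Y → ℂ)

/-- a linear form evaluated at the `i`-th point -/
def xx (i : ι) : M →ₗ[ℂ] (ι → Y) → ℂ := LinearMap.funLeft ℂ ℂ (fun y => y i) ∘ₗ ev

/-- permutation of the points -/
def rho (Y : Type*) : Equiv.Perm ι →* ((ι → Y) → ℂ) →ₐ[ℂ] (ι → Y) → ℂ where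
  toFun g := Pi.algHom ℂ _ fun y => Pi.evalAlgHom ℂ _ (y ∘ g)
  map_one' := rfl
  map_mul' _ _ := rfl

theorem main2 {b : ℕ} (hb : (Fintype.card ι - 1) ^ 2 ≤ b) (w : ι → Fin b → M) :
    (fun y : ι → Y => ∑ g : Equiv.Perm ι, ∏ i, ∏ j, ev (w i j) (y (g i))) ∈ Submodule.span ℂ
      (Set.range fun (l : Fin b → M) (y : ι → Y) => ∏ j, ∏ i, ev (l j) (y i)) := by
  have h1 : ∏ i, ∏ j, xx ev i (w i j) ∈ RR (xx ev) univ b := by
    have key : ∀ {α : Type} (T : Finset α) (f : α → (ι → Y) → ℂ)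
        (U : α → Submodule ℂ ((ι → Y) → ℂ)), (∀ i, f i ∈ U i) → ∏ i ∈ T, f i ∈ ∏ i ∈ T, U i := by
      intro α T f U h
      induction T using Finset.cons_induction with
      | empty => exact Submodule.one_le.1 le_rfl
      | cons i T hi ih => rw [prod_cons, prod_cons]; exact Submodule.mul_mem_mul (h i) ih
    refine key _ _ _ fun i => ?_
    simpa using key univ (fun j => xx ev i (w i j)) (fun _ => LinearMap.range (xx ev i))
      fun j => ⟨_, rfl⟩
  have h2 := main (xx ev) (rho Y) (fun _ _ _ => rfl) univ b hb h1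
  rw [Submodule.mem_comap, AA, Submodule.span_pow] at h2
  have h3 : av (rho Y) univ (∏ i, ∏ j, xx ev i (w i j))
      = fun y : ι → Y => ∑ g : Equiv.Perm ι, ∏ i, ∏ j, ev (w i j) (y (g i)) := by
    funext y
    simp only [av_apply, GG, mem_univ, not_true, IsEmpty.forall_iff, implies_true, filter_true,
      Finset.sum_apply, map_prod, Finset.prod_apply]
    rfl
  rw [← h3]
  refine Submodule.span_mono (fun f hf => ?_) h2
  obtain ⟨k, rfl⟩ := Set.mem_pow.1 hf
  choose l hl using fun j => (k j).2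
  refine ⟨l, funext fun y => ?_⟩
  simp only [List.prod_ofFn, ← hl, pow_one, NN, Finset.prod_apply]
  rfl

end

theorem FH_inj [FiniteDimensional ℂ M] {b : ℕ} (hb : (Fintype.card ι - 1) ^ 2 ≤ b)
    {Ψ : SymmetricPower ℂ ι (SymmetricPower ℂ (Fin b) M) →ₗ[ℂ]
      SymmetricPower ℂ (Fin b) (SymmetricPower ℂ ι M)} (h : IsFH Ψ) : Function.Injective Ψ := by
  refine (injective_iff_map_eq_zero _).2 fun u hu => sep u fun ξ => ?_
  obtain ⟨c, rfl⟩ := (Finsupp.mem_span_range_iff_exists_finsupp).1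
    (span_pure (ι := ι) (κ := Fin b) (M := M) ▸ Submodule.mem_top (x := u))
  let Λ : ((ι → M) → ℂ) →ₗ[ℂ] ℂ := c.sum fun v t => t • LinearMap.proj v
  have h1 : ∀ φ : Dual ℂ (SymmetricPower ℂ ι (SymmetricPower ℂ (Fin b) M)),
      φ (c.sum fun v t => t • pure (Fin b) v) = Λ fun v => φ (pure (Fin b) v) := fun φ => by
    simp [Λ, Finsupp.sum]
  have h2 := main2 (ι := ι) (LinearMap.ltoFun ℂ M ℂ ℂ) hb fun i _ => ξ i
  have h3 := (Submodule.span_le (p := LinearMap.ker Λ)).2 ?_ h2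
  · rw [h1]
    have : (fun v : ι → M => kap (fun i => kap fun _ : Fin b => ξ i) (pure (Fin b) v))
        = ((Fintype.card (Equiv.Perm (Fin b)) : ℂ) ^ Fintype.card ι) • fun y : ι → M =>
          ∑ g : Equiv.Perm ι, ∏ i, ∏ _j : Fin b, LinearMap.ltoFun ℂ M ℂ ℂ (ξ i) (y (g i)) := by
      funext v
      simp [pure, kap_tprod, prod_mul_distrib, mul_sum]
    rw [this, map_smul, LinearMap.mem_ker.1 h3, smul_zero]
  rintro _ ⟨l, rfl⟩
  have h4 := h1 (kap (fun j => kap fun _ : ι => l j) ∘ₗ Ψ)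
  rw [LinearMap.comp_apply, hu, map_zero] at h4
  have : (fun v : ι → M => (kap (fun j => kap fun _ : ι => l j) ∘ₗ Ψ) (pure (Fin b) v))
      = ((Fintype.card (ι → Equiv.Perm (Fin b)) : ℂ) * (Fintype.card (Equiv.Perm (Fin b)) *
        (Fintype.card (Equiv.Perm ι) : ℂ) ^ b)) • fun y : ι → M =>
          ∏ j, ∏ i, LinearMap.ltoFun ℂ M ℂ ℂ (l j) (y i) := by
    funext v
    have : ∀ (σ : Equiv.Perm ι) j, ∏ i, l j (v (σ i)) = ∏ i, l j (v i) := fun σ j =>
      Equiv.prod_comp σ fun i => l j (v i)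
    simp [FH_pure h, kap_tprod, this, prod_mul_distrib, mul_assoc]
  rw [this, map_smul, eq_comm, smul_eq_zero] at h4
  refine h4.resolve_left (mul_ne_zero ?_ (mul_ne_zero card_perm_ne (pow_ne_zero _ card_perm_ne)))
  exact_mod_cast Fintype.card_ne_zero

theorem FH_surj [FiniteDimensional ℂ M] {b : ℕ} (hb : (Fintype.card ι - 1) ^ 2 ≤ b)
    {Ψ : SymmetricPower ℂ (Fin b) (SymmetricPower ℂ ι M) →ₗ[ℂ]
      SymmetricPower ℂ ι (SymmetricPower ℂ (Fin b) M)} (h : IsFH Ψ) : Function.Surjective Ψ := by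
  let θ : SymmetricPower ℂ ι (SymmetricPower ℂ (Fin b) M) →ₗ[ℂ] (ι → Dual ℂ M) → ℂ :=
    LinearMap.pi fun ξ => kap fun i => kap fun _ => ξ i
  have h0 : Function.Injective θ :=
    (injective_iff_map_eq_zero _).2 fun u hu => sep u fun ξ => congrFun hu ξ
  rw [← LinearMap.range_eq_top, eq_top_iff, ← span_pure, Submodule.span_le]
  rintro _ ⟨v, rfl⟩
  let ev : M →ₗ[ℂ] Dual ℂ M → ℂ := LinearMap.ltoFun ℂ _ ℂ ℂ ∘ₗ Dual.eval ℂ M
  have h1 : ∀ w : ι → Fin b → M, θ (tprod ℂ fun i => tprod ℂ (w i))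
      = ((Fintype.card (Equiv.Perm (Fin b)) : ℂ) ^ Fintype.card ι) • fun y : ι → Dual ℂ M =>
        ∑ g : Equiv.Perm ι, ∏ i, ∏ j, ev (w i j) (y (g i)) := by
    intro w
    funext y
    have : ∀ (σ : Equiv.Perm (Fin b)) i k, ∏ j, y i (w k (σ j)) = ∏ j, y i (w k j) :=
      fun σ i k => Equiv.prod_comp σ fun j => y i (w k j)
    simp [θ, ev, kap_tprod, this, prod_mul_distrib, ← mul_sum,
      perm_flip fun i k => ∏ j, y i (w k j)]
  have h2 := (Submodule.span_le (p := (LinearMap.range Ψ).map θ)).2 ?_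
    (main2 (ι := ι) ev hb fun i _ => v i)
  · have h3 := Submodule.smul_mem _ ((Fintype.card (Equiv.Perm (Fin b)) : ℂ) ^ Fintype.card ι) h2
    rw [← h1] at h3
    obtain ⟨z, a1, a2⟩ := h3
    rw [h0 a2] at a1
    exact a1
  rintro _ ⟨l, rfl⟩
  have h3 : θ (Ψ (pure ι l)) ∈ (LinearMap.range Ψ).map θ := ⟨_, ⟨_, rfl⟩, rfl⟩
  rw [FH_pure h, map_smul, h1, smul_smul, Submodule.smul_mem_iff _ (mul_ne_zero
    (by exact_mod_cast Fintype.card_ne_zero) (pow_ne_zero _ card_perm_ne))] at h3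
  have : (fun y : ι → Dual ℂ M => ∑ g : Equiv.Perm ι, ∏ i, ∏ j, ev (l j) (y (g i)))
      = (Fintype.card (Equiv.Perm ι) : ℂ) • fun y => ∏ j, ∏ i, ev (l j) (y i) := by
    funext y
    rw [sum_congr rfl fun g _ => Equiv.prod_comp g fun i => ∏ j, ev (l j) (y i), prod_comm]
    simp
  rwa [this, Submodule.smul_mem_iff _ card_perm_ne] at h3

end Vale.Agent.P181
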